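import Mathlib

/-!
Existence of measurable transport maps out of measures without point masses.
-/

set_option autoImplicit false

open MeasureTheory ProbabilityTheory Set Filter
open scoped ENNReal Topology unitInterval

namespace Crest.Agent.Lib.Transport

theorem continuous_cdf_of_null (m : Measure ℝ) [IsProbabilityMeasure m] [NullSingletonClass m] :
    Continuous (cdf m) := by
  rw [continuous_iff_continuousAt]
  intro x
  rw [(monotone_cdf m).continuousAt_iff_leftLim_eq_rightLim, (cdf m).rightLim_eq]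
  have h := (cdf m).measure_singleton x
  rw [measure_cdf, measure_singleton] at h
  have h1 : cdf m x - Function.leftLim (cdf m) x ≤ 0 := ENNReal.ofReal_eq_zero.1 h.symm
  have h2 : Function.leftLim (cdf m) x ≤ cdf m x := (monotone_cdf m).leftLim_le le_rfl
  linarith

theorem measure_cdf_le (m : Measure ℝ) [IsProbabilityMeasure m] [NullSingletonClass m]
    (t : ℝ) (h0 : 0 ≤ t) (h1 : t ≤ 1) : m {x | cdf m x ≤ t} = ENNReal.ofReal t := by
  rcases h1.eq_or_lt with h1 | h1
  · subst h1
    have : {x | cdf m x ≤ 1} = univ := eq_univ_of_forall fun x => cdf_le_one m x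
    simp [this]
  have hc := continuous_cdf_of_null m
  set S := {x | cdf m x ≤ t} with hS
  have hcl : IsClosed S := isClosed_le hc continuous_const
  have hbdd : BddAbove S := by
    have := (tendsto_cdf_atTop m).eventually (lt_mem_nhds h1)
    obtain ⟨b, hb⟩ := eventually_atTop.1 this
    refine ⟨b, fun x hx => ?_⟩
    by_contra hxb
    exact absurd (hb x (not_le.1 hxb).le) (not_lt.2 hx)
  rcases S.eq_empty_or_nonempty with he | hne
  · have ht : t ≤ 0 := by
      refine ge_of_tendsto (tendsto_cdf_atBot m) (Eventually.of_forall fun x => ?_)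
      have : x ∉ S := by simp [he]
      exact (not_le.1 this).le
    rw [he, le_antisymm ht h0]; simp
  · have hmem : sSup S ∈ S := hcl.csSup_mem hne hbdd
    have hSI : S = Iic (sSup S) := by
      ext x
      exact ⟨fun hx => le_csSup hbdd hx, fun hx => le_trans (monotone_cdf m hx) hmem⟩
    have hge : t ≤ cdf m (sSup S) := by
      have : Tendsto (cdf m) (𝓝[>] (sSup S)) (𝓝 (cdf m (sSup S))) :=
        (hc.tendsto _).mono_left nhdsWithin_le_nhds
      refine ge_of_tendsto this (eventually_nhdsWithin_of_forall fun y hy => ?_)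
      have : y ∉ S := fun h => absurd (le_csSup hbdd h) (not_le.2 hy)
      exact (not_le.1 this).le
    rw [hSI, ← ofReal_cdf, le_antisymm hmem hge]

/-- Probability integral transform. -/
theorem exists_map_eq_volume {X : Type*} [MeasurableSpace X] [StandardBorelSpace X]
    (ν : Measure X) [IsProbabilityMeasure ν] [NullSingletonClass ν] :
    ∃ U : X → I, Measurable U ∧ ν.map U = volume := by
  have he := measurableEmbedding_embeddingReal X
  set m := ν.map (embeddingReal X) with hm
  have : IsProbabilityMeasure m := Measure.isProbabilityMeasure_map he.measurable.aemeasurable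
  have : NullSingletonClass m := by
    constructor
    intro x
    rw [hm, he.map_apply]
    exact (Set.subsingleton_singleton.preimage he.injective).measure_zero ν
  have hc := continuous_cdf_of_null m
  let F : ℝ → I := fun x => ⟨cdf m x, cdf_nonneg m x, cdf_le_one m x⟩
  have hF : Measurable F := hc.measurable.subtype_mk
  refine ⟨F ∘ embeddingReal X, hF.comp he.measurable, ?_⟩
  rw [← Measure.map_map hF he.measurable, ← hm]
  have : IsProbabilityMeasure (m.map F) := Measure.isProbabilityMeasure_map hF.aemeasurable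
  refine Measure.ext_of_Iic _ _ fun t => ?_
  rw [Measure.map_apply hF measurableSet_Iic, unitInterval.volume_Iic]
  exact measure_cdf_le m t t.2.1 t.2.2

/-- A finite measure without point masses can be pushed to any measure with the same mass. -/
theorem exists_map_eq {X Y : Type*} [MeasurableSpace X] [StandardBorelSpace X]
    [MeasurableSpace Y] [StandardBorelSpace Y] [Nonempty Y]
    (ν₁ : Measure X) (ν₂ : Measure Y) [IsFiniteMeasure ν₁] [NullSingletonClass ν₁]
    (h : ν₁ univ = ν₂ univ) : ∃ T : X → Y, Measurable T ∧ ν₁.map T = ν₂ := by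
  by_cases h0 : ν₁ univ = 0
  · refine ⟨fun _ => Classical.arbitrary Y, measurable_const, ?_⟩
    have h1 : ν₁ = 0 := Measure.measure_univ_eq_zero.1 h0
    have h2 : ν₂ = 0 := Measure.measure_univ_eq_zero.1 (h ▸ h0)
    simp [h1, h2]
  have htop : ν₁ univ ≠ ⊤ := measure_ne_top _ _
  have : IsProbabilityMeasure ((ν₁ univ)⁻¹ • ν₁) :=
    ⟨by simp [ENNReal.inv_mul_cancel h0 htop]⟩
  have : IsProbabilityMeasure ((ν₁ univ)⁻¹ • ν₂) :=
    ⟨by simp [← h, ENNReal.inv_mul_cancel h0 htop]⟩
  have : NullSingletonClass ((ν₁ univ)⁻¹ • ν₁) := ⟨fun x => by simp⟩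
  obtain ⟨U, hU, hUm⟩ := exists_map_eq_volume ((ν₁ univ)⁻¹ • ν₁)
  obtain ⟨V, hV, hVm⟩ := Measure.exists_measurable_map_eq ((ν₁ univ)⁻¹ • ν₂)
  refine ⟨V ∘ U, hV.comp hU, ?_⟩
  have : ((ν₁ univ)⁻¹ • ν₁).map (V ∘ U) = (ν₁ univ)⁻¹ • ν₂ := by
    rw [← Measure.map_map hV hU, hUm, hVm]
  rw [Measure.map_smul] at this
  have h3 := congrArg (fun μ => (ν₁ univ) • μ) this
  simpa [smul_smul, ENNReal.mul_inv_cancel h0 htop] using h3

/-- Cell-wise transport: the map keeps the countable label `q` almost everywhere. -/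
theorem exists_map_eq_cells {X : Type*} [MeasurableSpace X] [StandardBorelSpace X] [Nonempty X]
    (q : X → ℕ) (hq : Measurable q)
    (ν₁ ν₂ : Measure X) [IsFiniteMeasure ν₁] [NullSingletonClass ν₁]
    (h : ∀ n, ν₁ (q ⁻¹' {n}) = ν₂ (q ⁻¹' {n})) :
    ∃ T : X → X, Measurable T ∧ ν₁.map T = ν₂ ∧ ∀ᵐ x ∂ν₁, q (T x) = q x := by
  have hQ : ∀ n, MeasurableSet (q ⁻¹' {n}) := fun n => hq (measurableSet_singleton n)
  have key : ∀ n, ∃ T : X → X, Measurable T ∧
      (ν₁.restrict (q ⁻¹' {n})).map T = ν₂.restrict (q ⁻¹' {n}) := fun n =>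
    exists_map_eq _ _ (by simpa using h n)
  choose T hT hTm using key
  have hmeas : Measurable fun x => T (q x) x := by
    have : Measurable fun p : X × ℕ => T p.2 p.1 :=
      measurable_from_prod_countable_left fun n => hT n
    exact this.comp (measurable_id.prodMk hq)
  have hdisj : Pairwise (Function.onFun Disjoint fun n => q ⁻¹' {n}) := by
    intro n m hnm
    exact Disjoint.preimage _ (disjoint_singleton.2 hnm)
  have hcover : (⋃ n, q ⁻¹' {n}) = univ := by
    ext x; simp
  have hsum : ∀ ν : Measure X, ν = Measure.sum fun n => ν.restrict (q ⁻¹' {n}) := fun ν => by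
    rw [← Measure.restrict_iUnion hdisj hQ, hcover, Measure.restrict_univ]
  have hcongr : ∀ n, (fun x => T (q x) x) =ᵐ[ν₁.restrict (q ⁻¹' {n})] T n := fun n => by
    filter_upwards [ae_restrict_mem (hQ n)] with x hx
    have : q x = n := hx
    rw [this]
  refine ⟨fun x => T (q x) x, hmeas, ?_, ?_⟩
  · rw [hsum ν₁, Measure.map_sum hmeas.aemeasurable, hsum ν₂]
    congr 1
    ext1 n
    rw [Measure.map_congr (hcongr n), hTm n]
  · rw [hsum ν₁, Measure.ae_sum_iff]
    intro n
    have h1 : ∀ᵐ y ∂((ν₁.restrict (q ⁻¹' {n})).map (T n)), y ∈ q ⁻¹' {n} := by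
      rw [hTm n]; exact ae_restrict_mem (hQ n)
    have h2 := ae_of_ae_map (hT n).aemeasurable h1
    filter_upwards [h2, ae_restrict_mem (hQ n)] with x hx hx'
    have h3 : q x = n := hx'
    rw [h3]; exact hx

/-- Halving: a measurable set carrying half of the mass of every cell. -/
theorem exists_half {X : Type*} [MeasurableSpace X] [StandardBorelSpace X]
    (ν : Measure X) [IsFiniteMeasure ν] [NullSingletonClass ν] :
    ∃ A : Set X, MeasurableSet A ∧ 2 * ν A = ν univ := by
  obtain ⟨T, hT, hTm⟩ := exists_map_eq ν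
    ((ν univ / 2) • (Measure.dirac true + Measure.dirac false : Measure Bool))
    (by
      simp only [Measure.smul_apply, Measure.add_apply, measure_univ, smul_eq_mul]
      rw [one_add_one_eq_two, ENNReal.div_mul_cancel (by simp) (by simp)])
  refine ⟨T ⁻¹' {true}, hT (measurableSet_singleton _), ?_⟩
  rw [← Measure.map_apply hT (measurableSet_singleton _), hTm]
  simp [ENNReal.mul_div_cancel]

theorem exists_half_cells {X : Type*} [MeasurableSpace X] [StandardBorelSpace X]
    (q : X → ℕ) (hq : Measurable q) (ν : Measure X) [IsFiniteMeasure ν] [NullSingletonClass ν] :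
    ∃ A : Set X, MeasurableSet A ∧ (∀ n, 2 * ν (q ⁻¹' {n} ∩ A) = ν (q ⁻¹' {n})) ∧
      (∀ n, 2 * ν (q ⁻¹' {n} ∩ Aᶜ) = ν (q ⁻¹' {n})) := by
  have hQ : ∀ n, MeasurableSet (q ⁻¹' {n}) := fun n => hq (measurableSet_singleton n)
  choose A hA hAm using fun n => exists_half (ν.restrict (q ⁻¹' {n}))
  have hmeas : MeasurableSet (⋃ n, q ⁻¹' {n} ∩ A n) :=
    MeasurableSet.iUnion fun n => (hQ n).inter (hA n)
  have h1 : ∀ n, 2 * ν (q ⁻¹' {n} ∩ ⋃ n, q ⁻¹' {n} ∩ A n) = ν (q ⁻¹' {n}) := fun n => by
    have : q ⁻¹' {n} ∩ (⋃ n, q ⁻¹' {n} ∩ A n) = A n ∩ q ⁻¹' {n} := by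
      ext x
      simp only [mem_inter_iff, mem_preimage, mem_singleton_iff, mem_iUnion]
      constructor
      · rintro ⟨rfl, m, rfl, hm⟩; exact ⟨hm, rfl⟩
      · rintro ⟨h, rfl⟩; exact ⟨rfl, _, rfl, h⟩
    rw [this, ← Measure.restrict_apply (hA n), hAm n]; simp
  refine ⟨_, hmeas, h1, fun n => ?_⟩
  have h2 := measure_inter_add_sdiff (μ := ν) (q ⁻¹' {n}) hmeas
  have h3 := h1 n
  rw [← sdiff_eq]
  set a := ν (q ⁻¹' {n} ∩ ⋃ n, q ⁻¹' {n} ∩ A n)
  set b := ν (q ⁻¹' {n} \ ⋃ n, q ⁻¹' {n} ∩ A n)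
  have ha : a ≠ ⊤ := measure_ne_top _ _
  have : a + b = a + a := by rw [h2, ← h3, two_mul]
  rw [(ENNReal.add_right_inj ha).1 this, h3]

/-- A measurable countable labelling of a separable metric space with cells of small diameter. -/
theorem exists_small_cells (X : Type*) [PseudoMetricSpace X] [TopologicalSpace.SeparableSpace X]
    [MeasurableSpace X] [OpensMeasurableSpace X] {δ : ℝ} (hδ : 0 < δ) :
    ∃ q : X → ℕ, Measurable q ∧ ∀ x y, q x = q y → dist x y ≤ δ := by
  classical
  obtain ⟨As, hAm, hAb, hAd, hAu, -⟩ :=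
    SeparableSpace.exists_measurable_partition_diam_le X hδ
  have hex : ∀ x, ∃ n, x ∈ As n := fun x => by
    have : x ∈ ⋃ n, As n := hAu ▸ mem_univ x
    simpa using this
  refine ⟨fun x => Nat.find (hex x), measurable_find hex hAm, fun x y hxy => ?_⟩
  have hx := Nat.find_spec (hex x)
  have hy := Nat.find_spec (hex y)
  simp only at hxy
  rw [hxy] at hx
  exact (Metric.dist_le_diam_of_mem (hAb _) hx hy).trans (hAd _)

/-- For a set `A` carrying half of each small cell, `2 • η|A` and `η` can be transported onto each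
other by maps moving points by at most `δ`. -/
theorem exists_halving {X : Type*} [MetricSpace X] [CompleteSpace X] [SecondCountableTopology X]
    [MeasurableSpace X] [BorelSpace X] [Nonempty X]
    (η : Measure X) [IsFiniteMeasure η] [NullSingletonClass η] {δ : ℝ} (hδ : 0 < δ) :
    ∃ A : Set X, MeasurableSet A ∧ ∀ B : Set X, (B = A ∨ B = Aᶜ) →
      ∃ S S' : X → X, Measurable S ∧ Measurable S' ∧
        ((2 : ℝ≥0∞) • η.restrict B).map S = η ∧ η.map S' = (2 : ℝ≥0∞) • η.restrict B ∧
        (∀ᵐ x ∂((2 : ℝ≥0∞) • η.restrict B), dist (S x) x ≤ δ) ∧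
        (∀ᵐ x ∂η, dist (S' x) x ≤ δ) := by
  obtain ⟨q, hq, hqd⟩ := exists_small_cells X hδ
  obtain ⟨A, hA, h1, h2⟩ := exists_half_cells q hq η
  refine ⟨A, hA, fun B hB => ?_⟩
  have hQ : ∀ n, MeasurableSet (q ⁻¹' {n}) := fun n => hq (measurableSet_singleton n)
  have hcell : ∀ n, ((2 : ℝ≥0∞) • η.restrict B) (q ⁻¹' {n}) = η (q ⁻¹' {n}) := fun n => by
    rw [Measure.smul_apply, Measure.restrict_apply (hQ n), smul_eq_mul]
    rcases hB with rfl | rfl
    · exact h1 n
    · exact h2 n
  have : IsFiniteMeasure ((2 : ℝ≥0∞) • η.restrict B) :=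
    Measure.smul_finite _ (by simp)
  have : NullSingletonClass ((2 : ℝ≥0∞) • η.restrict B) := ⟨fun x => by simp⟩
  obtain ⟨S, hS, hSm, hSq⟩ := exists_map_eq_cells q hq _ η hcell
  obtain ⟨S', hS', hSm', hSq'⟩ := exists_map_eq_cells q hq η _ fun n => (hcell n).symm
  exact ⟨S, S', hS, hS', hSm, hSm', hSq.mono fun x hx => hqd _ _ hx,
    hSq'.mono fun x hx => hqd _ _ hx⟩

end Crest.Agent.Lib.Transport
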